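import Vale.Agent.P061.Defs

namespace Vale.Agent.Results.P061.ConstantAtLeastFour

open Vale.Agent.P061

/-- The complete graph on `n` vertices as a multigraph. -/
def complete (n : ℕ) : MultiGraph (Fin n) {p : Fin n × Fin n // p.1 < p.2} where
  fst e := e.1.1
  snd e := e.1.2
  ne e := (ne_of_lt e.2)

theorem mem_cut_complete {n : ℕ} {S : Finset (Fin n)} {e : {p : Fin n × Fin n // p.1 < p.2}} :
    e ∈ (complete n).cut Finset.univ S ↔
      (e.1.1 ∈ S ∧ e.1.2 ∉ S) ∨ (e.1.1 ∉ S ∧ e.1.2 ∈ S) := by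
  unfold MultiGraph.cut
  rw [Finset.mem_filter]
  constructor
  · intro h
    exact h.2
  · intro h
    exact ⟨Finset.mem_univ _, h⟩

/-- The cut of the complete graph has `|S|(n-|S|)` copies. -/
theorem card_cut_complete (n : ℕ) (S : Finset (Fin n)) :
    ((complete n).cut Finset.univ S).card = S.card * (n - S.card) := by
  classical
  have hcompl : (Sᶜ).card = n - S.card := by
    rw [Finset.card_compl, Fintype.card_fin]
  rw [← hcompl, ← Finset.card_product]
  symm
  have hne : ∀ x ∈ S ×ˢ Sᶜ, x.1 ≠ x.2 := by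
    intro x hx h
    simp only [Finset.mem_product, Finset.mem_compl] at hx
    exact hx.2 (h ▸ hx.1)
  refine Finset.card_bij
    (fun x hx => if h : x.1 < x.2 then ⟨(x.1, x.2), h⟩ else
      ⟨(x.2, x.1), lt_of_le_of_ne (not_lt.1 h) (hne x hx).symm⟩) ?_ ?_ ?_
  · intro x hx
    have hx' := hx
    simp only [Finset.mem_product, Finset.mem_compl] at hx'
    by_cases h : x.1 < x.2
    · simp only [h, dif_pos]
      exact mem_cut_complete.2 (Or.inl hx')
    · simp only [h, dif_neg, not_false_eq_true]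
      exact mem_cut_complete.2 (Or.inr ⟨hx'.2, hx'.1⟩)
  · intro x hx y hy hxy
    have hx' := hx
    have hy' := hy
    simp only [Finset.mem_product, Finset.mem_compl] at hx' hy'
    by_cases h : x.1 < x.2 <;> by_cases h' : y.1 < y.2
    · simp only [h, h', dif_pos, Subtype.mk.injEq] at hxy
      exact hxy
    · simp only [h, h', dif_pos, dif_neg, not_false_eq_true, Subtype.mk.injEq, Prod.mk.injEq] at hxy
      exact absurd (hxy.1 ▸ hx'.1) hy'.2
    · simp only [h, h', dif_pos, dif_neg, not_false_eq_true, Subtype.mk.injEq, Prod.mk.injEq] at hxy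
      exact absurd (hxy.1 ▸ hy'.1) hx'.2
    · simp only [h, h', dif_neg, not_false_eq_true, Subtype.mk.injEq, Prod.mk.injEq] at hxy
      exact Prod.ext hxy.2 hxy.1
  · rintro ⟨⟨a, b⟩, hab⟩ he
    have he' := mem_cut_complete.1 he
    rcases he' with ⟨h1, h2⟩ | ⟨h1, h2⟩
    · refine ⟨(a, b), by simp only [Finset.mem_product, Finset.mem_compl]; exact ⟨h1, h2⟩, ?_⟩
      have : (a, b).1 < (a, b).2 := hab
      simp only [this, dif_pos]
    · refine ⟨(b, a), by simp only [Finset.mem_product, Finset.mem_compl]; exact ⟨h2, h1⟩, ?_⟩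
      have : ¬ (b, a).1 < (b, a).2 := not_lt.2 (le_of_lt hab)
      simp only [this, dif_neg, not_false_eq_true]

theorem complete_edgeConnected (n : ℕ) : (complete n).EdgeConnected (n - 1) := by
  intro S hS hS'
  rw [card_cut_complete]
  have h1 : 1 ≤ S.card := Finset.card_pos.2 hS
  have h2 : S.card < n := by
    have hlt : S.card < (Finset.univ : Finset (Fin n)).card :=
      Finset.card_lt_card (Finset.ssubset_univ_iff.2 hS')
    simpa using hlt
  obtain ⟨s, hs⟩ : ∃ s, S.card = s + 1 := ⟨S.card - 1, by omega⟩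
  obtain ⟨t, ht⟩ : ∃ t, n = S.card + (t + 1) := ⟨n - S.card - 1, by omega⟩
  have e : n - S.card = t + 1 := by omega
  rw [e, hs]
  have e2 : n - 1 = s + 1 + t := by omega
  rw [e2]
  nlinarith

/-- In the complete graph every spanning tree crosses, in one of the two sides of its bipartition,
all its edges. -/
theorem four_bound (C : ℝ) (n : ℕ) (hn : 2 ≤ n)
    (h : ∃ T, (complete n).IsSpanningTree T ∧ (complete n).IsThin (C / ((n - 1 : ℕ) : ℝ)) T) :
    4 * ((n : ℝ) - 1) ^ 2 ≤ C * (n : ℝ) ^ 2 := by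
  classical
  obtain ⟨T, ⟨hT, hcard⟩, hthin⟩ := h
  obtain ⟨col⟩ := hT.colorable_two
  rw [Fintype.card_fin] at hcard
  have hTpos : T.Nonempty := by
    rw [← Finset.card_pos]
    omega
  -- the colour class
  set S : Finset (Fin n) := Finset.univ.filter fun v => col v = 0 with hSdef
  have hadj : ∀ e ∈ T, ((complete n).graphOf T).Adj ((complete n).fst e) ((complete n).snd e) := by
    intro e he
    rw [MultiGraph.graphOf, SimpleGraph.fromEdgeSet_adj]
    exact ⟨⟨e, he, rfl⟩, (complete n).ne e⟩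
  have hcol : ∀ e ∈ T, col ((complete n).fst e) ≠ col ((complete n).snd e) :=
    fun e he => col.valid (hadj e he)
  have hcutT : (complete n).cut T S = T := by
    apply Finset.filter_true_of_mem
    intro e he
    have h1 := hcol e he
    simp only [hSdef, Finset.mem_filter, Finset.mem_univ, true_and]
    generalize col ((complete n).fst e) = a at h1
    generalize col ((complete n).snd e) = b at h1
    fin_cases a <;> fin_cases b <;> simp_all
  obtain ⟨e0, he0⟩ := hTpos
  have hS1 : S.Nonempty := by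
    have h1 := hcol e0 he0
    by_cases h : col ((complete n).fst e0) = 0
    · exact ⟨(complete n).fst e0, Finset.mem_filter.2 ⟨Finset.mem_univ _, h⟩⟩
    · have h2 : col ((complete n).snd e0) = 0 := by
        generalize col ((complete n).fst e0) = a at h1 h
        generalize col ((complete n).snd e0) = b at h1
        fin_cases a <;> fin_cases b <;> simp_all
      exact ⟨(complete n).snd e0, Finset.mem_filter.2 ⟨Finset.mem_univ _, h2⟩⟩
  have hS2 : S ≠ Finset.univ := by
    intro hEq
    have h1 := hcol e0 he0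
    have ha : (complete n).fst e0 ∈ S := by rw [hEq]; simp
    have hb : (complete n).snd e0 ∈ S := by rw [hEq]; simp
    simp only [hSdef, Finset.mem_filter, Finset.mem_univ, true_and] at ha hb
    exact h1 (ha.trans hb.symm)
  have hmain := hthin S hS1 hS2
  rw [hcutT, card_cut_complete] at hmain
  have hnR : (2 : ℝ) ≤ n := by exact_mod_cast hn
  have hTc : (T.card : ℝ) = (n : ℝ) - 1 := by
    have : T.card + 1 = n := hcard
    have h2 : ((T.card + 1 : ℕ) : ℝ) = n := by rw [this]
    push_cast at h2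
    linarith
  have hn1 : ((n - 1 : ℕ) : ℝ) = (n : ℝ) - 1 := by
    rw [Nat.cast_sub (by omega)]
    simp
  have hpos : (0 : ℝ) < (n : ℝ) - 1 := by linarith
  rw [hTc, hn1] at hmain
  -- bound the cut by n^2/4
  have hscard : S.card ≤ n := by
    have := Finset.card_le_univ S
    simpa using this
  have hprod : ((S.card * (n - S.card) : ℕ) : ℝ) ≤ (n : ℝ) ^ 2 / 4 := by
    rw [Nat.cast_mul, Nat.cast_sub hscard]
    nlinarith [sq_nonneg ((S.card : ℝ) - ((n : ℝ) - S.card))]
  have hCpos : 0 < C := by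
    by_contra hC
    have hC' : C ≤ 0 := not_lt.1 hC
    have h3 : C / ((n : ℝ) - 1) * ((S.card * (n - S.card) : ℕ) : ℝ) ≤ 0 :=
      mul_nonpos_of_nonpos_of_nonneg (div_nonpos_of_nonpos_of_nonneg hC' hpos.le) (Nat.cast_nonneg _)
    linarith
  have h4 : (n : ℝ) - 1 ≤ C / ((n : ℝ) - 1) * ((n : ℝ) ^ 2 / 4) :=
    le_trans hmain (mul_le_mul_of_nonneg_left hprod (div_nonneg hCpos.le hpos.le))
  have h5 : ((n : ℝ) - 1) * ((n : ℝ) - 1) ≤ C * ((n : ℝ) ^ 2 / 4) := by
    have := mul_le_mul_of_nonneg_right h4 hpos.le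
    have e : C / ((n : ℝ) - 1) * ((n : ℝ) ^ 2 / 4) * ((n : ℝ) - 1) = C * ((n : ℝ) ^ 2 / 4) := by
      field_simp
    rwa [e] at this
  nlinarith

/-- Every constant `C` for which all `k`-edge-connected multigraphs on at least two vertices have a
`(C/k)`-thin spanning tree is at least `4`. -/
theorem result (C : ℝ)
    (h : ∀ (V E : Type) [Fintype V] [DecidableEq V] [Fintype E] (G : MultiGraph V E) (k : ℕ),
      1 ≤ k → 2 ≤ Fintype.card V → G.EdgeConnected k →
        ∃ T, G.IsSpanningTree T ∧ G.IsThin (C / (k : ℝ)) T) :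
    4 ≤ C := by
  by_contra hC
  have hC' : C < 4 := not_le.1 hC
  -- choose n with 8 / n < 4 - C
  obtain ⟨n, hn⟩ := exists_nat_gt (8 / (4 - C) + 2)
  have hd : 0 < 4 - C := by linarith
  have hn2 : 2 ≤ n := by
    have h1 : (0 : ℝ) ≤ 8 / (4 - C) := by positivity
    have h2 : (2 : ℝ) < n := by linarith
    exact_mod_cast h2.le
  have hb := four_bound C n hn2 (by
    have := h (Fin n) {p : Fin n × Fin n // p.1 < p.2} (complete n) (n - 1) (by omega)
      (by simpa using hn2) (complete_edgeConnected n)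
    exact this)
  have hnR : (0 : ℝ) < n := by
    have : (2 : ℝ) ≤ n := by exact_mod_cast hn2
    linarith
  -- 4 (n-1)^2 ≤ C n^2 and n large gives a contradiction
  have h8 : 8 / (4 - C) < n := by linarith [show (0 : ℝ) ≤ 2 by norm_num]
  have h9 : 8 < (n : ℝ) * (4 - C) := by
    rwa [div_lt_iff₀ hd, ] at h8
  have h10 : (n : ℝ) ^ 2 * (4 - C) ≤ 8 * n - 4 := by nlinarith
  have h11 : (n : ℝ) * ((n : ℝ) * (4 - C)) ≤ 8 * n - 4 := by nlinarith
  have h12 : (n : ℝ) * 8 < (n : ℝ) * ((n : ℝ) * (4 - C)) := mul_lt_mul_of_pos_left h9 hnR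
  linarith

end Vale.Agent.Results.P061.ConstantAtLeastFour
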